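import Vale.Agent.P207.N4.H517.AngD

/-!
# P207, theorem P: the rates of the angle, with a clock

`σ t x` is an additive cocycle over the flow, `c₀ t ≤ σ t x ≤ c₁ t`. If
`exp ((a + sl) σ) ≤ Dt ≤ exp ((b - sl) σ)` at one time `T > 0`, then the angle between a geodesic
and the geodesics from another end point has the rates between `a σ` and `b σ`.
-/

open Set Filter Topology Metric
open scoped ContDiff

set_option linter.unusedSectionVars false

noncomputable section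

namespace Vale.Agent.P207.N4.H517

open Vale.Agent.P207.N4.H832

open Vale.Agent.P207.N3 Vale.Agent.P207.N4

/-! ### numbers -/

/-- the choice of `ε` -/
theorem exists_eps_clk {K m : ℝ} (hm : 0 < m) :
    ∃ ε : ℝ, 0 < ε ∧ ε ≤ 1 ∧ 1 + ε * K ≤ Real.exp m ∧ Real.exp (-m) ≤ 1 - ε * K := by
  have h1 : Tendsto (fun ε : ℝ => 1 + ε * K) (𝓝[>] 0) (𝓝 (1 + 0 * K)) :=
    (Continuous.tendsto (by fun_prop) 0).mono_left nhdsWithin_le_nhds
  have h2 : Tendsto (fun ε : ℝ => 1 - ε * K) (𝓝[>] 0) (𝓝 (1 - 0 * K)) :=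
    (Continuous.tendsto (by fun_prop) 0).mono_left nhdsWithin_le_nhds
  have e1 : 1 + 0 * K < Real.exp m := by
    rw [zero_mul, add_zero]
    exact Real.one_lt_exp_iff.2 hm
  have e2 : Real.exp (-m) < 1 - 0 * K := by
    rw [zero_mul, sub_zero]
    calc Real.exp (-m) < Real.exp 0 := Real.exp_lt_exp.2 (by linarith)
      _ = 1 := Real.exp_zero
  have h3 : ∀ᶠ ε : ℝ in 𝓝[>] 0, ε ≤ 1 :=
    nhdsWithin_le_nhds (Iic_mem_nhds (by norm_num))
  obtain ⟨ε, h4, h5, h6, h7⟩ := ((h1.eventually_lt_const e1).and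
    ((h2.eventually_const_lt e2).and (h3.and self_mem_nhdsWithin))).exists
  exact ⟨ε, h7, h6, h4.le, h5.le⟩

/-- forward -/
theorem fwd_clk {W S : ℝ → ℝ} {a b T S₀ C₀ c₁ : ℝ} (hT : 0 < T) (hS : 0 ≤ S₀) (ha : 0 ≤ a)
    (hb : 0 ≤ b) (hC : 1 ≤ C₀) (hc₁ : 0 ≤ c₁) (hW : ∀ s, 0 ≤ W s) (hz : S 0 = 0)
    (hm : ∀ s r, 0 ≤ s → 0 ≤ r → S s ≤ S (s + r))
    (hl : ∀ s r, 0 ≤ s → 0 ≤ r → S (s + r) ≤ S s + c₁ * r)
    (h1 : ∀ s, S₀ ≤ s → W (s + T) ≤ Real.exp (-(a * (S (s + T) - S s))) * W s ∧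
      W s ≤ Real.exp (b * (S (s + T) - S s)) * W (s + T))
    (h2 : ∀ s, 0 ≤ s → ∀ r, 0 ≤ r → r ≤ T + S₀ → W (s + r) ≤ C₀ * W s ∧ W s ≤ C₀ * W (s + r)) :
    ∀ t, 0 ≤ t → W t ≤ C₀ * C₀ * Real.exp (a * (c₁ * (T + S₀))) * Real.exp (-(a * S t)) * W 0 ∧
      W 0 ≤ C₀ * C₀ * Real.exp (b * S t) * W t := by
  have hn : ∀ n : ℕ, W (S₀ + n * T) ≤ Real.exp (-(a * (S (S₀ + n * T) - S S₀))) * W S₀ ∧
      W S₀ ≤ Real.exp (b * (S (S₀ + n * T) - S S₀)) * W (S₀ + n * T) := by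
    intro n
    induction n with
    | zero => simp
    | succ n ih =>
      have h3 : S₀ ≤ S₀ + n * T := by
        have : 0 ≤ (n : ℝ) * T := by positivity
        linarith
      obtain ⟨h4, h5⟩ := h1 _ h3
      have e1 : S₀ + ((n + 1 : ℕ) : ℝ) * T = S₀ + n * T + T := by push_cast; ring
      rw [e1]
      have e2 : Real.exp (-(a * (S (S₀ + n * T + T) - S S₀))) =
          Real.exp (-(a * (S (S₀ + n * T + T) - S (S₀ + n * T)))) *
            Real.exp (-(a * (S (S₀ + n * T) - S S₀))) := by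
        rw [← Real.exp_add]; congr 1; ring
      have e3 : Real.exp (b * (S (S₀ + n * T + T) - S S₀)) =
          Real.exp (b * (S (S₀ + n * T) - S S₀)) *
            Real.exp (b * (S (S₀ + n * T + T) - S (S₀ + n * T))) := by
        rw [← Real.exp_add]; congr 1; ring
      rw [e2, e3]
      refine ⟨h4.trans ?_, ih.2.trans ?_⟩
      · rw [mul_assoc]
        exact mul_le_mul_of_nonneg_left ih.1 (Real.exp_pos _).le
      · rw [mul_assoc]
        exact mul_le_mul_of_nonneg_left h5 (Real.exp_pos _).le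
  intro t ht
  have hW0 := hW 0
  have hWt := hW t
  have hS0 : ∀ s, 0 ≤ s → 0 ≤ S s := by
    intro s hs
    have := hm 0 s le_rfl hs
    rwa [zero_add, hz] at this
  rcases le_total t S₀ with hts | hts
  · obtain ⟨h3, h4⟩ := h2 0 le_rfl t ht (by linarith)
    rw [zero_add] at h3 h4
    have h5 := hl 0 t le_rfl ht
    rw [zero_add, hz, zero_add] at h5
    have h6 : S t ≤ c₁ * (T + S₀) := h5.trans (mul_le_mul_of_nonneg_left (by linarith) hc₁)
    have e1 : 1 ≤ Real.exp (a * (c₁ * (T + S₀))) * Real.exp (-(a * S t)) := by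
      rw [← Real.exp_add]
      exact Real.one_le_exp (by nlinarith)
    have e2 : 1 ≤ Real.exp (b * S t) := Real.one_le_exp (mul_nonneg hb (hS0 t ht))
    constructor
    · calc W t ≤ C₀ * W 0 := h3
        _ = C₀ * 1 * 1 * W 0 := by ring
        _ ≤ C₀ * C₀ * (Real.exp (a * (c₁ * (T + S₀))) * Real.exp (-(a * S t))) * W 0 := by gcongr
        _ = _ := by ring
    · calc W 0 ≤ C₀ * W t := h4
        _ = C₀ * 1 * 1 * W t := by ring
        _ ≤ C₀ * C₀ * Real.exp (b * S t) * W t := by gcongr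
  · set n : ℕ := ⌊(t - S₀) / T⌋₊ with hndef
    have hq : 0 ≤ (t - S₀) / T := div_nonneg (by linarith) hT.le
    have h3 : (n : ℝ) * T ≤ t - S₀ := by
      have := Nat.floor_le hq
      rwa [← hndef, le_div_iff₀ hT] at this
    have h4 : t - S₀ < (n : ℝ) * T + T := by
      have := Nat.lt_floor_add_one ((t - S₀) / T)
      rw [← hndef, div_lt_iff₀ hT] at this
      linarith
    have hnT : 0 ≤ (n : ℝ) * T := by positivity
    obtain ⟨h5, h6⟩ := hn n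
    obtain ⟨h7, h8⟩ := h2 0 le_rfl S₀ hS (by linarith)
    rw [zero_add] at h7 h8
    obtain ⟨h9, h10⟩ := h2 (S₀ + n * T) (by linarith) (t - (S₀ + n * T)) (by linarith)
      (by linarith)
    rw [add_sub_cancel] at h9 h10
    have k1 := hl (S₀ + n * T) (t - (S₀ + n * T)) (by linarith) (by linarith)
    rw [add_sub_cancel] at k1
    have k2 := hm (S₀ + n * T) (t - (S₀ + n * T)) (by linarith) (by linarith)
    rw [add_sub_cancel] at k2
    have k3 := hl 0 S₀ le_rfl hS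
    rw [zero_add, hz, zero_add] at k3
    have k4 := hS0 S₀ hS
    have k5 : c₁ * (t - (S₀ + n * T)) ≤ c₁ * T := mul_le_mul_of_nonneg_left (by linarith) hc₁
    have k6 : S t - c₁ * (T + S₀) ≤ S (S₀ + n * T) - S S₀ := by nlinarith
    have k7 : S (S₀ + n * T) - S S₀ ≤ S t := by linarith
    constructor
    · calc W t ≤ C₀ * W (S₀ + n * T) := h9
        _ ≤ C₀ * (Real.exp (-(a * (S (S₀ + n * T) - S S₀))) * (C₀ * W 0)) := by
            gcongr
            exact h5.trans (mul_le_mul_of_nonneg_left h7 (Real.exp_pos _).le)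
        _ = C₀ * C₀ * Real.exp (-(a * (S (S₀ + n * T) - S S₀))) * W 0 := by ring
        _ ≤ C₀ * C₀ * (Real.exp (a * (c₁ * (T + S₀))) * Real.exp (-(a * S t))) * W 0 := by
            rw [← Real.exp_add]
            have k8 : -(a * (S (S₀ + n * T) - S S₀)) ≤ a * (c₁ * (T + S₀)) + -(a * S t) := by
              have := mul_le_mul_of_nonneg_left k6 ha
              linarith
            have k9 := Real.exp_le_exp.2 k8
            gcongr
        _ = _ := by ring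
    · calc W 0 ≤ C₀ * W S₀ := h8
        _ ≤ C₀ * (Real.exp (b * (S (S₀ + n * T) - S S₀)) * (C₀ * W t)) := by
            gcongr
            exact h6.trans (mul_le_mul_of_nonneg_left h10 (Real.exp_pos _).le)
        _ = C₀ * C₀ * Real.exp (b * (S (S₀ + n * T) - S S₀)) * W t := by ring
        _ ≤ C₀ * C₀ * Real.exp (b * S t) * W t := by
            have k9 := Real.exp_le_exp.2 (mul_le_mul_of_nonneg_left k7 hb)
            gcongr

/-- backward: `W s` is the size at the time `-s`, `G s` says that the side at the time `-s` is the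
right one -/
theorem bwd_clk {W S : ℝ → ℝ} {G : ℝ → Prop} {b b₀ T δ : ℝ} (hT : 0 < T) (hb : 0 ≤ b)
    (hb₀ : 0 ≤ b₀) (hδ : 0 < δ) (hδ1 : δ ≤ 1) (hW : ∀ s, 0 ≤ W s) (hz : S 0 = 0)
    (hm : ∀ s r, 0 ≤ s → 0 ≤ r → S s ≤ S (s + r))
    (h1 : ∀ s, 0 ≤ s → G s → ∀ r, 0 ≤ r → r ≤ T → Real.exp (b₀ * r) * W s < 1 →
      G (s + r) ∧ W (s + r) ≤ 2 * Real.exp (b₀ * r) * W s)
    (h2 : ∀ s, 0 ≤ s → (∀ r, 0 ≤ r → r ≤ T → G (s + r) ∧ W (s + r) ≤ δ) →
      W (s + T) ≤ Real.exp (b * (S (s + T) - S s)) * W s) (hG : G 0) :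
    ∀ s, 0 ≤ s → Real.exp (b * S s) * W 0 ≤ δ / (2 * Real.exp (b₀ * T)) →
      G s ∧ W s ≤ 2 * Real.exp (b₀ * T) * (Real.exp (b * S s) * W 0) := by
  set δ₁ : ℝ := δ / (2 * Real.exp (b₀ * T)) with hδ₁
  have hE := Real.exp_pos (b₀ * T)
  have hδ₁0 : 0 < δ₁ := by positivity
  have hδ₁' : 2 * Real.exp (b₀ * T) * δ₁ = δ := by
    rw [hδ₁]; field_simp
  have hs1 : ∀ s, 0 ≤ s → G s → W s ≤ δ₁ → ∀ r, 0 ≤ r → r ≤ T → G (s + r) ∧
      W (s + r) ≤ 2 * Real.exp (b₀ * T) * W s ∧ W (s + r) ≤ δ := by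
    intro s hs hGs hWs r hr hrT
    have h3 : Real.exp (b₀ * r) ≤ Real.exp (b₀ * T) :=
      Real.exp_le_exp.2 (mul_le_mul_of_nonneg_left hrT hb₀)
    have h4 : Real.exp (b₀ * r) * W s ≤ Real.exp (b₀ * T) * δ₁ :=
      mul_le_mul h3 hWs (hW s) hE.le
    obtain ⟨h5, h6⟩ := h1 s hs hGs r hr hrT (by nlinarith)
    have h7 : W (s + r) ≤ 2 * Real.exp (b₀ * T) * W s := by
      refine h6.trans ?_
      have := mul_le_mul_of_nonneg_right h3 (hW s)
      nlinarith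
    refine ⟨h5, h7, h7.trans ?_⟩
    rw [← hδ₁']
    exact mul_le_mul_of_nonneg_left hWs (by positivity)
  have hn : ∀ n : ℕ, Real.exp (b * S (n * T)) * W 0 ≤ δ₁ → G (n * T) ∧
      W (n * T) ≤ Real.exp (b * S (n * T)) * W 0 := by
    intro n
    induction n with
    | zero => intro _; simp [hG, hz]
    | succ n ih =>
      intro h3
      have e1 : ((n + 1 : ℕ) : ℝ) * T = n * T + T := by push_cast; ring
      rw [e1] at h3 ⊢
      have h7 : 0 ≤ (n : ℝ) * T := by positivity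
      have h4 : Real.exp (b * S (n * T)) * W 0 ≤ δ₁ := by
        refine le_trans ?_ h3
        refine mul_le_mul_of_nonneg_right (Real.exp_le_exp.2 ?_) (hW 0)
        exact mul_le_mul_of_nonneg_left (hm _ _ h7 hT.le) hb
      obtain ⟨h5, h6⟩ := ih h4
      have h8 := hs1 _ h7 h5 (h6.trans h4)
      have h9 := h2 _ h7 fun r hr hrT => ⟨(h8 r hr hrT).1, (h8 r hr hrT).2.2⟩
      refine ⟨(h8 T hT.le le_rfl).1, h9.trans ?_⟩
      have e4 : Real.exp (b * S (n * T + T)) =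
          Real.exp (b * (S (n * T + T) - S (n * T))) * Real.exp (b * S (n * T)) := by
        rw [← Real.exp_add]; congr 1; ring
      rw [e4, mul_assoc]
      exact mul_le_mul_of_nonneg_left h6 (Real.exp_pos _).le
  intro s hs hsm
  set n : ℕ := ⌊s / T⌋₊ with hndef
  have hq : 0 ≤ s / T := div_nonneg hs hT.le
  have h3 : (n : ℝ) * T ≤ s := by
    have := Nat.floor_le hq
    rwa [← hndef, le_div_iff₀ hT] at this
  have h4 : s < (n : ℝ) * T + T := by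
    have := Nat.lt_floor_add_one (s / T)
    rw [← hndef, div_lt_iff₀ hT] at this
    linarith
  have hnT : 0 ≤ (n : ℝ) * T := by positivity
  have hmn := hm (n * T) (s - n * T) hnT (by linarith)
  rw [add_sub_cancel] at hmn
  have h5 : Real.exp (b * S (n * T)) * W 0 ≤ Real.exp (b * S s) * W 0 :=
    mul_le_mul_of_nonneg_right (Real.exp_le_exp.2 (mul_le_mul_of_nonneg_left hmn hb)) (hW 0)
  obtain ⟨h6, h7⟩ := hn n (h5.trans hsm)
  obtain ⟨h8, h9, -⟩ := hs1 _ hnT h6 (h7.trans (h5.trans hsm)) (s - n * T) (by linarith)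
    (by linarith)
  rw [add_sub_cancel] at h8 h9
  refine ⟨h8, h9.trans ?_⟩
  exact mul_le_mul_of_nonneg_left (h7.trans h5) (by positivity)

variable [Dim]

open Vale.Agent.P207.N4.H76 (pk tl e0 sg)
open Vale.Agent.P207.N4.H722 (GeoIn)
open Vale.Agent.P207.N4.H77 (Dt)

variable {Γ X B : Type} [Group Γ] [MetricSpace X] [ProperSpace X] [MulAction Γ X]
  [IsIsometricSMul Γ X] [TopologicalSpace B] [CompactSpace B] [T2Space B] [MulAction Γ B]
  [ContinuousConstSMul Γ B] {L : Leaf Γ X B} {V : Type} [NormedAddCommGroup V] [NormedSpace ℝ V]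
  [FiniteDimensional ℝ V]

/-- one block, with a clock -/
theorem exists_blk_clk {I : GeoIn L V} (M : Metr L) (hV : VecODE I M.U) {T a b sl m : ℝ}
    (hT : 0 < T) (hsl : 0 < sl) (hm : 0 < m) (σT : X → ℝ) (hσ : ∀ x, m ≤ σT x)
    (hlo : ∀ x v, Real.exp ((a + sl) * σT x) * ‖v‖ ≤ ‖Dt L T x v‖)
    (hhi : ∀ x v, ‖Dt L T x v‖ ≤ Real.exp ((b - sl) * σT x) * ‖v‖) :
    ∃ δ : ℝ, 0 < δ ∧ δ ≤ 1 ∧ ∀ (x : X) (ξ : B),
      (∀ s, 0 ≤ s → s ≤ T → 0 < ca I (L.φ s x) ξ ∧ ‖tl (kap I (L.φ s x) ξ)‖ ≤ δ) →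
      ‖tl (kap I (L.φ T x) ξ)‖ ≤ Real.exp (-(a * σT x)) * ‖tl (kap I x ξ)‖ ∧
        ‖tl (kap I x ξ)‖ ≤ Real.exp (b * σT x) * ‖tl (kap I (L.φ T x) ξ)‖ := by
  obtain ⟨K₀, hK₀⟩ := U_norm M
  set K : ℝ := T * Real.exp ((2 * K₀ + 1) * T) with hK
  obtain ⟨ε, hε, hε1, he1, he2⟩ := exists_eps_clk (K := K) (mul_pos hsl hm)
  obtain ⟨δ, hδ, hode⟩ := hV ε hε
  refine ⟨min δ 1, lt_min hδ one_pos, min_le_right _ _, fun x ξ h => ?_⟩
  have q1 : (a + sl) * σT x / T * T = (a + sl) * σT x := by field_simp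
  have q2 : (b - sl) * σT x / T * T = (b - sl) * σT x := by field_simp
  have h1 := Vale.Agent.P207.H517.block (E := E2) (A := fun s => M.U (L.φ s x))
    (D := fun s => Dt L s x) (w := fun s => tl (kap I (L.φ s x) ξ)) (K₀ := K₀) (T := T) (ε := ε)
    (a₁ := (a + sl) * σT x / T) (b₁ := (b - sl) * σT x / T) hT.le hε.le hε1
    (fun s => hK₀ _) (fun s u v => M.U_symm _ u v)
    (fun s => H547.RatD.hasDerivAt_Dt M x s) (by
      ext v
      simp [Vale.Agent.P207.N4.H77.Dt_zero])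
    (fun v => by rw [q1]; exact hlo x v) (fun v => by rw [q2]; exact hhi x v)
    (fun s hs => hode x ξ s (h s hs.1 hs.2).1 ((h s hs.1 hs.2).2.trans (min_le_left _ _)))
  rw [q1, q2, ← hK] at h1
  simp only [L.φ_zero] at h1
  obtain ⟨h2, h3⟩ := h1
  have hslσ : sl * m ≤ sl * σT x := mul_le_mul_of_nonneg_left (hσ x) hsl.le
  constructor
  · refine h2.trans (mul_le_mul_of_nonneg_right ?_ (norm_nonneg _))
    calc (1 + ε * K) * Real.exp (-((a + sl) * σT x))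
        ≤ Real.exp (sl * m) * Real.exp (-((a + sl) * σT x)) :=
          mul_le_mul_of_nonneg_right he1 (Real.exp_pos _).le
      _ = Real.exp (sl * m + -((a + sl) * σT x)) := by rw [Real.exp_add]
      _ ≤ Real.exp (-(a * σT x)) := Real.exp_le_exp.2 (by linarith)
  · have h4 : Real.exp (-(sl * m)) * ‖tl (kap I x ξ)‖ ≤
        Real.exp ((b - sl) * σT x) * ‖tl (kap I (L.φ T x) ξ)‖ :=
      (mul_le_mul_of_nonneg_right he2 (norm_nonneg _)).trans h3
    have h5 : Real.exp (sl * m) * Real.exp (-(sl * m)) = 1 := by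
      rw [← Real.exp_add]; simp
    calc ‖tl (kap I x ξ)‖ = Real.exp (sl * m) * (Real.exp (-(sl * m)) * ‖tl (kap I x ξ)‖) := by
          rw [← mul_assoc, h5, one_mul]
      _ ≤ Real.exp (sl * m) *
            (Real.exp ((b - sl) * σT x) * ‖tl (kap I (L.φ T x) ξ)‖) :=
          mul_le_mul_of_nonneg_left h4 (Real.exp_pos _).le
      _ = Real.exp (sl * m + (b - sl) * σT x) * ‖tl (kap I (L.φ T x) ξ)‖ := by
          rw [← mul_assoc, ← Real.exp_add]
      _ ≤ Real.exp (b * σT x) * ‖tl (kap I (L.φ T x) ξ)‖ :=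
          mul_le_mul_of_nonneg_right (Real.exp_le_exp.2 (by linarith)) (norm_nonneg _)

section main

variable {I : GeoIn L V} {Gam : V → V →L[ℝ] V →L[ℝ] V}

/-- **the rate of the angle, forward, with a clock** -/
theorem tl_rate_clk (M : Metr L) (hC : Cov I M.U Gam) (hV : VecODE I M.U) {a₀ b₀ : ℝ}
    (ha₀ : 0 < a₀) (h₀lo : ∀ x v, a₀ * ‖v‖ ^ 2 ≤ inner ℝ (M.U x v) v)
    (h₀hi : ∀ x v, inner ℝ (M.U x v) v ≤ b₀ * ‖v‖ ^ 2) (σ : ℝ → X → ℝ) {c₀ c₁ : ℝ} (hc₀ : 0 < c₀)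
    (hσa : ∀ s t x, σ (s + t) x = σ t x + σ s (L.φ t x))
    (hσl : ∀ t x, 0 ≤ t → c₀ * t ≤ σ t x) (hσh : ∀ t x, 0 ≤ t → σ t x ≤ c₁ * t) {T a b sl : ℝ}
    (hT : 0 < T) (hsl : 0 < sl) (ha0 : 0 ≤ a) (hb0 : 0 ≤ b)
    (hlo : ∀ x v, Real.exp ((a + sl) * σ T x) * ‖v‖ ≤ ‖Dt L T x v‖)
    (hhi : ∀ x v, ‖Dt L T x v‖ ≤ Real.exp ((b - sl) * σ T x) * ‖v‖) :
    ∃ C : ℝ, 1 ≤ C ∧ ∀ (x : X) (ξ : B), 0 < ca I x ξ → ∀ s, 0 ≤ s →
      0 < ca I (L.φ s x) ξ ∧
      ‖tl (kap I (L.φ s x) ξ)‖ ≤ C * Real.exp (-(a * σ s x)) * ‖tl (kap I x ξ)‖ ∧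
      ‖tl (kap I x ξ)‖ ≤ C * Real.exp (b * σ s x) * ‖tl (kap I (L.φ s x) ξ)‖ := by
  have hm : 0 < c₀ * T := mul_pos hc₀ hT
  obtain ⟨δ, hδ, hδ1, hblk⟩ := exists_blk_clk M hV hT hsl hm (σ T)
    (fun x => hσl T x hT.le) hlo hhi
  obtain ⟨x₀⟩ := L.nonempty
  have hc₁ : 0 ≤ c₁ := by
    have h1 := hσl 1 x₀ zero_le_one
    have h2 := hσh 1 x₀ zero_le_one
    linarith
  set β : ℝ := max b₀ 0 with hβ
  have hβ0 : 0 ≤ β := le_max_right _ _
  have hβhi : ∀ x v, inner ℝ (M.U x v) v ≤ β * ‖v‖ ^ 2 := fun x v =>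
    (h₀hi x v).trans (mul_le_mul_of_nonneg_right (le_max_left _ _) (sq_nonneg _))
  have cr : ∀ (x : X) (ξ : B), 0 < ca I x ξ → ∀ s, 0 ≤ s → 0 < ca I (L.φ s x) ξ ∧
      ‖tl (kap I (L.φ s x) ξ)‖ ≤ 2 * Real.exp (-(a₀ * s)) * ‖tl (kap I x ξ)‖ ∧
      ‖tl (kap I x ξ)‖ ≤ 2 * Real.exp (β * s) * ‖tl (kap I (L.φ s x) ξ)‖ :=
    fun x ξ h0 s hs => hC.tl_rate ha₀.le h₀lo hβhi h0 hs
  obtain ⟨S₀, hS0, hS⟩ : ∃ S₀ : ℝ, 0 ≤ S₀ ∧ ∀ s, S₀ ≤ s → 2 * Real.exp (-(a₀ * s)) ≤ δ := by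
    have h1 : Tendsto (fun s : ℝ => 2 * Real.exp (-(a₀ * s))) atTop (𝓝 (2 * 0)) := by
      refine Tendsto.const_mul _ (Real.tendsto_exp_atBot.comp ?_)
      exact tendsto_neg_atTop_atBot.comp (tendsto_id.const_mul_atTop ha₀)
    rw [mul_zero] at h1
    obtain ⟨S, hS⟩ := (h1.eventually_lt_const hδ).exists_forall_of_atTop
    exact ⟨max S 0, le_max_right _ _, fun s hs => (hS s ((le_max_left _ _).trans hs)).le⟩
  have σ0 : ∀ x, σ 0 x = 0 := by
    intro x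
    have h1 := hσa 0 0 x
    rw [add_zero, L.φ_zero] at h1
    linarith
  set C₀ : ℝ := 2 * Real.exp (β * (T + S₀)) with hC₀
  have hE : 1 ≤ Real.exp (β * (T + S₀)) := Real.one_le_exp (by positivity)
  have hC₀1 : 1 ≤ C₀ := by rw [hC₀]; linarith
  have hCa : 1 ≤ Real.exp (a * (c₁ * (T + S₀))) := Real.one_le_exp (by positivity)
  have hCC : 1 ≤ C₀ * C₀ := by nlinarith
  refine ⟨C₀ * C₀ * Real.exp (a * (c₁ * (T + S₀))), by nlinarith, fun x ξ h0 s hs => ?_⟩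
  have pos : ∀ s, 0 ≤ s → 0 < ca I (L.φ s x) ξ := fun s hs => (cr x ξ h0 s hs).1
  have h := fwd_clk (W := fun s => ‖tl (kap I (L.φ s x) ξ)‖) (S := fun s => σ s x) (a := a)
    (b := b) (T := T) (S₀ := S₀) (C₀ := C₀) (c₁ := c₁) hT hS0 ha0 hb0 hC₀1 hc₁
    (fun s => norm_nonneg _) (σ0 x) ?_ ?_ ?_ ?_ s hs
  · simp only [L.φ_zero] at h
    refine ⟨pos s hs, h.1, h.2.trans ?_⟩
    have h3 : C₀ * C₀ * Real.exp (b * σ s x) ≤
        C₀ * C₀ * Real.exp (a * (c₁ * (T + S₀))) * Real.exp (b * σ s x) := by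
      refine mul_le_mul_of_nonneg_right ?_ (Real.exp_pos _).le
      exact le_mul_of_one_le_right (by linarith) hCa
    exact mul_le_mul_of_nonneg_right h3 (norm_nonneg _)
  · intro r q hr hq
    have h1 := hσa q r x
    have h2 := hσl q (L.φ r x) hq
    have h3 : 0 ≤ c₀ * q := by positivity
    rw [add_comm q r] at h1
    linarith
  · intro r q hr hq
    have h1 := hσa q r x
    have h2 := hσh q (L.φ r x) hq
    rw [add_comm q r] at h1
    linarith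
  · intro r hr
    have hr0 : 0 ≤ r := hS0.trans hr
    have h3 := hblk (L.φ r x) ξ fun q hq hqT => by
      rw [← L.φ_add]
      refine ⟨pos _ (by linarith), ?_⟩
      have h4 := (cr x ξ h0 (q + r) (by linarith)).2.1
      have h5 := hS (q + r) (by linarith)
      have h6 := tl_le_one I x ξ
      have h7 := norm_nonneg (tl (kap I x ξ))
      calc ‖tl (kap I (L.φ (q + r) x) ξ)‖
          ≤ 2 * Real.exp (-(a₀ * (q + r))) * ‖tl (kap I x ξ)‖ := h4
        _ ≤ δ * 1 := mul_le_mul h5 h6 h7 hδ.le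
        _ = δ := mul_one δ
    have h8 : σ (r + T) x - σ r x = σ T (L.φ r x) := by
      have := hσa T r x
      rw [add_comm T r] at this
      linarith
    rw [← L.φ_add, add_comm T r] at h3
    simp only [h8]
    exact h3
  · intro r hr q hq hqT
    obtain ⟨-, h4, h5⟩ := cr (L.φ r x) ξ (pos r hr) q hq
    rw [← L.φ_add, add_comm q r] at h4 h5
    constructor
    · refine h4.trans (mul_le_mul_of_nonneg_right ?_ (norm_nonneg _))
      have h6 : Real.exp (-(a₀ * q)) ≤ 1 := Real.exp_le_one_iff.2 (by nlinarith)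
      rw [hC₀]
      linarith
    · refine h5.trans (mul_le_mul_of_nonneg_right ?_ (norm_nonneg _))
      rw [hC₀]
      have : Real.exp (β * q) ≤ Real.exp (β * (T + S₀)) :=
        Real.exp_le_exp.2 (mul_le_mul_of_nonneg_left hqT hβ0)
      linarith

/-- **the rate of the angle, backward, with a clock** -/
theorem tl_back_clk (M : Metr L) (hC : Cov I M.U Gam) (hV : VecODE I M.U) {b₀ : ℝ}
    (h₀hi : ∀ x v, inner ℝ (M.U x v) v ≤ b₀ * ‖v‖ ^ 2) (σ : ℝ → X → ℝ) {c₀ : ℝ} (hc₀ : 0 < c₀)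
    (hσa : ∀ s t x, σ (s + t) x = σ t x + σ s (L.φ t x))
    (hσl : ∀ t x, 0 ≤ t → c₀ * t ≤ σ t x) {T a b sl : ℝ}
    (hT : 0 < T) (hsl : 0 < sl) (hb0 : 0 ≤ b)
    (hlo : ∀ x v, Real.exp ((a + sl) * σ T x) * ‖v‖ ≤ ‖Dt L T x v‖)
    (hhi : ∀ x v, ‖Dt L T x v‖ ≤ Real.exp ((b - sl) * σ T x) * ‖v‖) :
    ∃ C δ : ℝ, 1 ≤ C ∧ 0 < δ ∧ ∀ (x : X) (ξ : B), 0 < ca I x ξ → ∀ s, 0 ≤ s →
      Real.exp (b * σ s (L.φ (-s) x)) * ‖tl (kap I x ξ)‖ ≤ δ → 0 < ca I (L.φ (-s) x) ξ ∧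
      ‖tl (kap I (L.φ (-s) x) ξ)‖ ≤ C * Real.exp (b * σ s (L.φ (-s) x)) * ‖tl (kap I x ξ)‖ := by
  have hm : 0 < c₀ * T := mul_pos hc₀ hT
  obtain ⟨δ, hδ, hδ1, hblk⟩ := exists_blk_clk M hV hT hsl hm (σ T)
    (fun x => hσl T x hT.le) hlo hhi
  set β : ℝ := max b₀ 0 with hβ
  have hβ0 : 0 ≤ β := le_max_right _ _
  have hβhi : ∀ x v, inner ℝ (M.U x v) v ≤ β * ‖v‖ ^ 2 := fun x v =>
    (h₀hi x v).trans (mul_le_mul_of_nonneg_right (le_max_left _ _) (sq_nonneg _))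
  have hE : 1 ≤ Real.exp (β * T) := Real.one_le_exp (by positivity)
  have σ0 : ∀ x, σ 0 x = 0 := by
    intro x
    have h1 := hσa 0 0 x
    rw [add_zero, L.φ_zero] at h1
    linarith
  refine ⟨2 * Real.exp (β * T), δ / (2 * Real.exp (β * T)), by linarith, by positivity,
    fun x ξ h0 s hs hsm => ?_⟩
  -- additivity of the backward clock
  have hS : ∀ r q, σ (r + q) (L.φ (-(r + q)) x) =
      σ q (L.φ (-(r + q)) x) + σ r (L.φ (-r) x) := by
    intro r q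
    have h1 := hσa r q (L.φ (-(r + q)) x)
    rw [← L.φ_add, show q + -(r + q) = -r by ring] at h1
    exact h1
  have h := bwd_clk (W := fun s => ‖tl (kap I (L.φ (-s) x) ξ)‖)
    (S := fun s => σ s (L.φ (-s) x))
    (G := fun s => 0 < ca I (L.φ (-s) x) ξ) (b := b) (b₀ := β) (T := T) (δ := δ) hT hb0 hβ0 hδ hδ1
    (fun s => norm_nonneg _) (σ0 _) ?_ ?_ ?_ (by simpa [L.φ_zero] using h0) s hs
    (by simpa [L.φ_zero] using hsm)
  · refine ⟨h.1, h.2.trans (le_of_eq ?_)⟩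
    simp only [neg_zero, L.φ_zero]
    ring
  · intro r q hr hq
    have h1 := hS r q
    have h2 := hσl q (L.φ (-(r + q)) x) hq
    have h3 : 0 ≤ c₀ * q := by positivity
    linarith
  · intro r hr hG q hq hqT hsmall
    have h3 := tl_back hC hβ0 hβhi hG hq hsmall
    rw [← L.φ_add, show -q + -r = -(r + q) by ring] at h3
    exact h3
  · intro r hr hall
    have h3 := (hblk (L.φ (-(r + T)) x) ξ fun q hq hqT => by
      rw [← L.φ_add, show q + -(r + T) = -(r + (T - q)) by ring]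
      exact hall (T - q) (by linarith) (by linarith)).2
    rw [← L.φ_add, show T + -(r + T) = -r by ring] at h3
    have h4 : σ (r + T) (L.φ (-(r + T)) x) - σ r (L.φ (-r) x) = σ T (L.φ (-(r + T)) x) := by
      rw [hS r T]; ring
    simp only [h4]
    exact h3

end main

end Vale.Agent.P207.N4.H517
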