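import Vale.Agent.P207.N4.H832.Angle
import Vale.Agent.P207.N4.H547.RatD
import Vale.Agent.P207.H517.Ang

/-!
# P207, theorem H: the rates of the angle from the rates of the unstable Jacobi tensor

`tl_rate_dyn`, `tl_back_dyn` : if `exp (a₁ T) ≤ Dt ≤ exp (b₁ T)` for one `T > 0` then the angle
between a geodesic and the geodesics from another end point has the rates between `a` and `b`, for
all `a < a₁`, `b₁ < b`.
-/

open Set Filter Topology Metric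
open scoped ContDiff

set_option linter.unusedSectionVars false

noncomputable section

namespace Vale.Agent.P207.N4.H517

open Vale.Agent.P207.N4.H832

open Vale.Agent.P207.N3 Vale.Agent.P207.N4

/-- the equation `c' = k (1 - c²)`, `k ≤ b`, backwards -/
theorem scalar_back {c c' : ℝ → ℝ} {b : ℝ} (hb : 0 ≤ b) (hc : ∀ s, HasDerivAt c (c' s) s)
    (hhi : ∀ s, c' s ≤ b * (1 - c s ^ 2)) (hle : ∀ s, c s ^ 2 ≤ 1) (h0 : 0 < c 0) {s : ℝ}
    (hs : 0 ≤ s) (hsm : Real.exp (2 * b * s) * (1 - c 0 ^ 2) < 1) :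
    0 < c (-s) ∧ 1 - c (-s) ^ 2 ≤ 4 * (Real.exp (2 * b * s) * (1 - c 0 ^ 2)) := by
  have hle1 : ∀ s, c s ≤ 1 := fun s => by nlinarith [hle s]
  have hge1 : ∀ s, -1 ≤ c s := fun s => by nlinarith [hle s]
  have hexp : ∀ k s : ℝ, HasDerivAt (fun s : ℝ => Real.exp (k * s)) (Real.exp (k * s) * k) s := by
    intro k s
    have := ((hasDerivAt_id s).const_mul k).exp
    simpa using this
  -- `c > -1`
  have hpos : ∀ r, r ≤ 0 → 0 < 1 + c r := by
    intro r hr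
    have hA : Antitone fun r => (1 + c r) * Real.exp (-(2 * b) * r) := by
      have hd : ∀ r, HasDerivAt (fun r => (1 + c r) * Real.exp (-(2 * b) * r))
          (c' r * Real.exp (-(2 * b) * r) + (1 + c r) * (Real.exp (-(2 * b) * r) * -(2 * b))) r :=
        fun r => ((hc r).const_add 1).mul (hexp _ r)
      refine antitone_of_deriv_nonpos (fun r => (hd r).differentiableAt) fun r => ?_
      rw [(hd r).deriv]
      have h1 := hhi r
      have h2 := Real.exp_pos (-(2 * b) * r)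
      have h3 : c' r ≤ 2 * b * (1 + c r) := by
        have h4 : 0 ≤ (1 + c r) * (1 + c r) := mul_self_nonneg _
        nlinarith [mul_nonneg hb h4]
      nlinarith
    have h1 := hA hr
    simp only [mul_zero, Real.exp_zero, mul_one] at h1
    have h2 := Real.exp_pos (-(2 * b) * r)
    by_contra h3
    push Not at h3
    have h4 : (1 + c r) * Real.exp (-(2 * b) * r) ≤ 0 := mul_nonpos_of_nonpos_of_nonneg h3 h2.le
    linarith
  set w : ℝ → ℝ := fun s => (1 - c s) / (1 + c s) with hw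
  have hwd : ∀ s, s ≤ 0 → HasDerivAt w (-(2 * c' s) / (1 + c s) ^ 2) s := by
    intro s hs
    have h2 := ((hc s).const_sub 1).div ((hc s).const_add 1) (hpos s hs).ne'
    refine h2.congr_deriv ?_
    congr 1
    ring
  have hw1 : ∀ s, s ≤ 0 → w s * (1 + c s) ^ 2 = 1 - c s ^ 2 := by
    intro s hs
    have h1 : 1 + c s ≠ 0 := (hpos s hs).ne'
    rw [hw]
    field_simp
    ring
  have hd2 : ∀ s, s ≤ 0 → -(2 * b) * w s ≤ -(2 * c' s) / (1 + c s) ^ 2 := by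
    intro s hs
    have h1 : 0 < (1 + c s) ^ 2 := by
      have := hpos s hs
      positivity
    rw [le_div_iff₀ h1, mul_assoc, hw1 s hs]
    linarith [hhi s]
  have hM : MonotoneOn (fun s => w s * Real.exp (2 * b * s)) (Iic 0) := by
    refine monotoneOn_of_deriv_nonneg (convex_Iic 0)
      (fun s hs => ((hwd s hs).mul (hexp (2 * b) s)).continuousAt.continuousWithinAt)
      (fun s hs => ?_) fun s hs => ?_
    · rw [interior_Iic] at hs
      exact ((hwd s hs.le).mul (hexp (2 * b) s)).differentiableAt.differentiableWithinAt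
    · rw [interior_Iic] at hs
      have h1 := ((hwd s hs.le).mul (hexp (2 * b) s)).deriv
      rw [show (fun s => w s * Real.exp (2 * b * s)) = w * fun s => Real.exp (2 * b * s) from rfl,
        h1]
      have h2 := hd2 s hs.le
      have h3 := Real.exp_pos (2 * b * s)
      nlinarith
  have h1 := hM (mem_Iic.2 (by linarith : -s ≤ 0)) (mem_Iic.2 le_rfl) (by linarith : -s ≤ 0)
  simp only [mul_zero, Real.exp_zero, mul_one] at h1
  have hw0 : w 0 ≤ 1 - c 0 ^ 2 := by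
    have h3 : 0 ≤ w 0 := div_nonneg (by linarith [hle1 0]) (by linarith)
    rw [← hw1 0 le_rfl]
    nlinarith [mul_nonneg h3 h0.le, mul_nonneg (mul_nonneg h3 h0.le) h0.le]
  have h2 : w (-s) ≤ Real.exp (2 * b * s) * (1 - c 0 ^ 2) := by
    have h3 : Real.exp (2 * b * s) * Real.exp (2 * b * -s) = 1 := by
      rw [← Real.exp_add]
      simp
    have h4 : w (-s) = Real.exp (2 * b * s) * (w (-s) * Real.exp (2 * b * -s)) := by
      rw [mul_left_comm, h3, mul_one]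
    rw [h4]
    exact mul_le_mul_of_nonneg_left (h1.trans hw0) (Real.exp_pos _).le
  have h5 := hpos (-s) (by linarith)
  have h6 : w (-s) * (1 + c (-s)) = 1 - c (-s) := by
    rw [hw]
    field_simp
  constructor
  · have h7 : w (-s) < 1 := h2.trans_lt hsm
    nlinarith
  · rw [← hw1 (-s) (by linarith)]
    have h8 : (1 + c (-s)) ^ 2 ≤ 4 := by nlinarith [hle1 (-s)]
    have h9 : 0 ≤ w (-s) := div_nonneg (by linarith [hle1 (-s)]) h5.le
    nlinarith [mul_le_mul_of_nonneg_left h8 h9]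

variable [Dim]

open Vale.Agent.P207.N4.H76 (pk tl e0 sg)
open Vale.Agent.P207.N4.H722 (GeoIn)
open Vale.Agent.P207.N4.H77 (Dt)

variable {Γ X B : Type} [Group Γ] [MetricSpace X] [ProperSpace X] [MulAction Γ X]
  [IsIsometricSMul Γ X] [TopologicalSpace B] [CompactSpace B] [T2Space B] [MulAction Γ B]
  [ContinuousConstSMul Γ B] {L : Leaf Γ X B} {V : Type} [NormedAddCommGroup V] [NormedSpace ℝ V]
  [FiniteDimensional ℝ V]

section back

variable {I : GeoIn L V} {U : X → E2 →L[ℝ] E2} {Gam : V → V →L[ℝ] V →L[ℝ] V} (hC : Cov I U Gam)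

include hC in
/-- the backward rate of the tangential part -/
theorem tl_back {b : ℝ} (hb : 0 ≤ b) (hhi : ∀ x v, inner ℝ (U x v) v ≤ b * ‖v‖ ^ 2) {x : X}
    {ξ : B} (h0 : 0 < ca I x ξ) {s : ℝ} (hs : 0 ≤ s)
    (hsm : Real.exp (b * s) * ‖tl (kap I x ξ)‖ < 1) : 0 < ca I (L.φ (-s) x) ξ ∧
      ‖tl (kap I (L.φ (-s) x) ξ)‖ ≤ 2 * Real.exp (b * s) * ‖tl (kap I x ξ)‖ := by
  choose y v hv hd using fun s => hC.hasDerivAt_ca x ξ s
  have key : Real.exp (2 * b * s) = Real.exp (b * s) ^ 2 := by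
    rw [← Real.exp_nat_mul]
    congr 1
    push_cast
    ring
  have e2 : 1 - ca I x ξ ^ 2 = ‖tl (kap I x ξ)‖ ^ 2 := by linarith [ca_sq I x ξ]
  have e1 : 1 - ca I (L.φ (-s) x) ξ ^ 2 = ‖tl (kap I (L.φ (-s) x) ξ)‖ ^ 2 := by
    linarith [ca_sq I (L.φ (-s) x) ξ]
  have hp : 0 ≤ Real.exp (b * s) * ‖tl (kap I x ξ)‖ := by positivity
  have h := scalar_back (c := fun s => ca I (L.φ s x) ξ) (b := b) hb hd
    (fun s => by rw [← hv s]; exact hhi _ _)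
    (fun s => ca_sq_le I _ ξ) (by simp only [L.φ_zero]; exact h0) hs
    (by
      simp only [L.φ_zero]
      rw [key, e2, ← mul_pow]
      exact pow_lt_one₀ hp hsm two_ne_zero)
  simp only [L.φ_zero] at h
  rw [key, e2, e1, ← mul_pow] at h
  refine ⟨h.1, ?_⟩
  have h2 : 4 * (Real.exp (b * s) * ‖tl (kap I x ξ)‖) ^ 2 =
      (2 * Real.exp (b * s) * ‖tl (kap I x ξ)‖) ^ 2 := by ring
  rw [h2] at h
  exact (pow_le_pow_iff_left₀ (norm_nonneg _) (by positivity) two_ne_zero).1 h.2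

end back

/-- the equation of the tangential part: `w' = -U w + o(|w|)` -/
def VecODE (I : GeoIn L V) (U : X → E2 →L[ℝ] E2) : Prop := ∀ ε : ℝ, 0 < ε → ∃ δ : ℝ, 0 < δ ∧
  ∀ (x : X) (ξ : B) (s : ℝ), 0 < ca I (L.φ s x) ξ → ‖tl (kap I (L.φ s x) ξ)‖ ≤ δ →
    ∃ w' : E2, HasDerivAt (fun r => tl (kap I (L.φ r x) ξ)) w' s ∧
      ‖w' + U (L.φ s x) (tl (kap I (L.φ s x) ξ))‖ ≤ ε * ‖tl (kap I (L.φ s x) ξ)‖

theorem U_norm (M : Metr L) : ∃ K₀ : ℝ, ∀ x, ‖M.U x‖ ≤ K₀ := by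
  obtain ⟨K, hK, hc⟩ := L.cocompact
  obtain ⟨C, hC⟩ := hK.exists_bound_of_continuousOn M.U_cont.continuousOn
  refine ⟨C, fun x => ?_⟩
  obtain ⟨g, hg⟩ := hc x
  rw [← M.U_smul g x]
  exact hC _ hg

theorem tl_le_one (I : GeoIn L V) (x : X) (ξ : B) : ‖tl (kap I x ξ)‖ ≤ 1 := by
  have h1 := ca_sq I x ξ
  have h2 := norm_nonneg (tl (kap I x ξ))
  nlinarith [sq_nonneg (ca I x ξ)]

/-- one block -/
theorem exists_blk {I : GeoIn L V} (M : Metr L) (hV : VecODE I M.U) {T a a₁ b b₁ : ℝ} (hT : 0 < T)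
    (ha : a < a₁) (hb : b₁ < b)
    (hlo : ∀ x v, Real.exp (a₁ * T) * ‖v‖ ≤ ‖Dt L T x v‖)
    (hhi : ∀ x v, ‖Dt L T x v‖ ≤ Real.exp (b₁ * T) * ‖v‖) :
    ∃ δ : ℝ, 0 < δ ∧ δ ≤ 1 ∧ ∀ (x : X) (ξ : B),
      (∀ s, 0 ≤ s → s ≤ T → 0 < ca I (L.φ s x) ξ ∧ ‖tl (kap I (L.φ s x) ξ)‖ ≤ δ) →
      ‖tl (kap I (L.φ T x) ξ)‖ ≤ Real.exp (-(a * T)) * ‖tl (kap I x ξ)‖ ∧
        ‖tl (kap I x ξ)‖ ≤ Real.exp (b * T) * ‖tl (kap I (L.φ T x) ξ)‖ := by
  obtain ⟨K₀, hK₀⟩ := U_norm M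
  obtain ⟨ε, hε, hblk⟩ := Vale.Agent.P207.H517.exists_block (E := E2) (K₀ := K₀) hT ha hb
  obtain ⟨δ, hδ, hode⟩ := hV ε hε
  refine ⟨min δ 1, lt_min hδ one_pos, min_le_right _ _, fun x ξ h => ?_⟩
  have h1 := hblk (fun s => M.U (L.φ s x)) (fun s => Dt L s x) (fun s => tl (kap I (L.φ s x) ξ))
    (fun s => hK₀ _) (fun s u v => M.U_symm _ u v)
    (fun s => H547.RatD.hasDerivAt_Dt M x s) (by
      ext v
      simp [Vale.Agent.P207.N4.H77.Dt_zero])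
    (fun v => hlo x v) (fun v => hhi x v)
    (fun s hs => hode x ξ s (h s hs.1 hs.2).1 ((h s hs.1 hs.2).2.trans (min_le_left _ _)))
  simpa only [L.φ_zero] using h1

section main

variable {I : GeoIn L V} {Gam : V → V →L[ℝ] V →L[ℝ] V}

/-- **the rate of the angle, forward** -/
theorem tl_rate_dyn (M : Metr L) (hC : Cov I M.U Gam) (hV : VecODE I M.U) {a₀ b₀ : ℝ}
    (ha₀ : 0 < a₀) (h₀lo : ∀ x v, a₀ * ‖v‖ ^ 2 ≤ inner ℝ (M.U x v) v)
    (h₀hi : ∀ x v, inner ℝ (M.U x v) v ≤ b₀ * ‖v‖ ^ 2) {T a a₁ b b₁ : ℝ} (hT : 0 < T)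
    (ha0 : 0 ≤ a) (hb0 : 0 ≤ b) (ha : a < a₁) (hb : b₁ < b)
    (hlo : ∀ x v, Real.exp (a₁ * T) * ‖v‖ ≤ ‖Dt L T x v‖)
    (hhi : ∀ x v, ‖Dt L T x v‖ ≤ Real.exp (b₁ * T) * ‖v‖) :
    ∃ C : ℝ, 1 ≤ C ∧ ∀ (x : X) (ξ : B), 0 < ca I x ξ → ∀ s, 0 ≤ s →
      0 < ca I (L.φ s x) ξ ∧
      ‖tl (kap I (L.φ s x) ξ)‖ ≤ C * Real.exp (-(a * s)) * ‖tl (kap I x ξ)‖ ∧
      ‖tl (kap I x ξ)‖ ≤ C * Real.exp (b * s) * ‖tl (kap I (L.φ s x) ξ)‖ := by
  obtain ⟨δ, hδ, hδ1, hblk⟩ := exists_blk M hV hT ha hb hlo hhi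
  set β : ℝ := max b₀ 0 with hβ
  have hβ0 : 0 ≤ β := le_max_right _ _
  have hβhi : ∀ x v, inner ℝ (M.U x v) v ≤ β * ‖v‖ ^ 2 := fun x v =>
    (h₀hi x v).trans (mul_le_mul_of_nonneg_right (le_max_left _ _) (sq_nonneg _))
  -- the crude rates
  have cr : ∀ (x : X) (ξ : B), 0 < ca I x ξ → ∀ s, 0 ≤ s → 0 < ca I (L.φ s x) ξ ∧
      ‖tl (kap I (L.φ s x) ξ)‖ ≤ 2 * Real.exp (-(a₀ * s)) * ‖tl (kap I x ξ)‖ ∧
      ‖tl (kap I x ξ)‖ ≤ 2 * Real.exp (β * s) * ‖tl (kap I (L.φ s x) ξ)‖ :=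
    fun x ξ h0 s hs => hC.tl_rate ha₀.le h₀lo hβhi h0 hs
  -- the time after which the angle is small
  obtain ⟨S₀, hS0, hS⟩ : ∃ S₀ : ℝ, 0 ≤ S₀ ∧ ∀ s, S₀ ≤ s → 2 * Real.exp (-(a₀ * s)) ≤ δ := by
    have h1 : Tendsto (fun s : ℝ => 2 * Real.exp (-(a₀ * s))) atTop (𝓝 (2 * 0)) := by
      refine Tendsto.const_mul _ (Real.tendsto_exp_atBot.comp ?_)
      exact tendsto_neg_atTop_atBot.comp (tendsto_id.const_mul_atTop ha₀)
    rw [mul_zero] at h1
    obtain ⟨S, hS⟩ := (h1.eventually_lt_const hδ).exists_forall_of_atTop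
    exact ⟨max S 0, le_max_right _ _, fun s hs => (hS s ((le_max_left _ _).trans hs)).le⟩
  set C₀ : ℝ := 2 * Real.exp (β * (T + S₀)) with hC₀
  have hE : 1 ≤ Real.exp (β * (T + S₀)) := Real.one_le_exp (by positivity)
  have hC₀1 : 1 ≤ C₀ := by rw [hC₀]; linarith
  have hCa : 1 ≤ Real.exp (a * (T + S₀)) := Real.one_le_exp (by positivity)
  have hCC : 1 ≤ C₀ * C₀ := by nlinarith
  refine ⟨C₀ * C₀ * Real.exp (a * (T + S₀)), by nlinarith, fun x ξ h0 s hs => ?_⟩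
  have pos : ∀ s, 0 ≤ s → 0 < ca I (L.φ s x) ξ := fun s hs => (cr x ξ h0 s hs).1
  have h := Vale.Agent.P207.H517.fwd_num (W := fun s => ‖tl (kap I (L.φ s x) ξ)‖) (a := a) (b := b)
    (T := T) (S₀ := S₀) (C₀ := C₀) hT hS0 ha0 hb0 hC₀1 (fun s => norm_nonneg _) ?_ ?_ s hs
  · simp only [L.φ_zero] at h
    refine ⟨pos s hs, h.1, h.2.trans ?_⟩
    have h3 : C₀ * C₀ * Real.exp (b * s) ≤
        C₀ * C₀ * Real.exp (a * (T + S₀)) * Real.exp (b * s) := by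
      refine mul_le_mul_of_nonneg_right ?_ (Real.exp_pos _).le
      exact le_mul_of_one_le_right (by linarith) hCa
    exact mul_le_mul_of_nonneg_right h3 (norm_nonneg _)
  · intro r hr
    have hr0 : 0 ≤ r := hS0.trans hr
    have h3 := hblk (L.φ r x) ξ fun q hq hqT => by
      rw [← L.φ_add]
      refine ⟨pos _ (by linarith), ?_⟩
      have h4 := (cr x ξ h0 (q + r) (by linarith)).2.1
      have h5 := hS (q + r) (by linarith)
      have h6 := tl_le_one I x ξ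
      have h7 := norm_nonneg (tl (kap I x ξ))
      calc ‖tl (kap I (L.φ (q + r) x) ξ)‖
          ≤ 2 * Real.exp (-(a₀ * (q + r))) * ‖tl (kap I x ξ)‖ := h4
        _ ≤ δ * 1 := mul_le_mul h5 h6 h7 hδ.le
        _ = δ := mul_one δ
    rw [← L.φ_add, add_comm T r] at h3
    exact h3
  · intro r hr q hq hqT
    obtain ⟨-, h4, h5⟩ := cr (L.φ r x) ξ (pos r hr) q hq
    rw [← L.φ_add, add_comm q r] at h4 h5
    constructor
    · refine h4.trans (mul_le_mul_of_nonneg_right ?_ (norm_nonneg _))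
      have h6 : Real.exp (-(a₀ * q)) ≤ 1 := Real.exp_le_one_iff.2 (by nlinarith)
      rw [hC₀]
      linarith
    · refine h5.trans (mul_le_mul_of_nonneg_right ?_ (norm_nonneg _))
      rw [hC₀]
      have : Real.exp (β * q) ≤ Real.exp (β * (T + S₀)) :=
        Real.exp_le_exp.2 (mul_le_mul_of_nonneg_left hqT hβ0)
      linarith

/-- **the rate of the angle, backward** -/
theorem tl_back_dyn (M : Metr L) (hC : Cov I M.U Gam) (hV : VecODE I M.U) {b₀ : ℝ}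
    (h₀hi : ∀ x v, inner ℝ (M.U x v) v ≤ b₀ * ‖v‖ ^ 2) {T a₁ b b₁ : ℝ} (hT : 0 < T)
    (hb0 : 0 ≤ b) (hb : b₁ < b)
    (hlo : ∀ x v, Real.exp (a₁ * T) * ‖v‖ ≤ ‖Dt L T x v‖)
    (hhi : ∀ x v, ‖Dt L T x v‖ ≤ Real.exp (b₁ * T) * ‖v‖) :
    ∃ C δ : ℝ, 1 ≤ C ∧ 0 < δ ∧ ∀ (x : X) (ξ : B), 0 < ca I x ξ → ∀ s, 0 ≤ s →
      Real.exp (b * s) * ‖tl (kap I x ξ)‖ ≤ δ → 0 < ca I (L.φ (-s) x) ξ ∧
      ‖tl (kap I (L.φ (-s) x) ξ)‖ ≤ C * Real.exp (b * s) * ‖tl (kap I x ξ)‖ := by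
  obtain ⟨δ, hδ, hδ1, hblk⟩ := exists_blk (a := a₁ - 1) M hV hT (by linarith) hb hlo hhi
  set β : ℝ := max b₀ 0 with hβ
  have hβ0 : 0 ≤ β := le_max_right _ _
  have hβhi : ∀ x v, inner ℝ (M.U x v) v ≤ β * ‖v‖ ^ 2 := fun x v =>
    (h₀hi x v).trans (mul_le_mul_of_nonneg_right (le_max_left _ _) (sq_nonneg _))
  have hE : 1 ≤ Real.exp (β * T) := Real.one_le_exp (by positivity)
  refine ⟨2 * Real.exp (β * T), δ / (2 * Real.exp (β * T)), by linarith, by positivity,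
    fun x ξ h0 s hs hsm => ?_⟩
  have h := Vale.Agent.P207.H517.bwd_num (W := fun s => ‖tl (kap I (L.φ (-s) x) ξ)‖)
    (G := fun s => 0 < ca I (L.φ (-s) x) ξ) (b := b) (b₀ := β) (T := T) (δ := δ) hT hb0 hβ0 hδ hδ1
    (fun s => norm_nonneg _) ?_ ?_ (by simpa [L.φ_zero] using h0) s hs
    (by simpa [L.φ_zero] using hsm)
  · refine ⟨h.1, h.2.trans (le_of_eq ?_)⟩
    simp only [neg_zero, L.φ_zero]
    ring
  · intro r hr hG q hq hqT hsmall
    have h3 := tl_back hC hβ0 hβhi hG hq hsmall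
    rw [← L.φ_add, show -q + -r = -(r + q) by ring] at h3
    exact h3
  · intro r hr hall
    have h3 := (hblk (L.φ (-(r + T)) x) ξ fun q hq hqT => by
      rw [← L.φ_add, show q + -(r + T) = -(r + (T - q)) by ring]
      exact hall (T - q) (by linarith) (by linarith)).2
    rw [← L.φ_add, show T + -(r + T) = -r by ring] at h3
    exact h3

end main

end Vale.Agent.P207.N4.H517
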